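import Vale.Agent.P112.Main

open MeasureTheory Filter Topology

namespace Vale.Agent.Results.P112.Sublevel

open Vale.Agent.P112

theorem result : ∃ a₀ : ℝ, 0 < a₀ ∧ ∀ η : ℕ → ℝ, (Summable fun m => √(η m)) →
    ∃ C : NNReal, ∀ v : ℂ → ℂ, (∀ x, ‖v x‖ = 1) → LipschitzWith 1 v → Sub η v →
      ∀ a : ℝ, 0 < a → a ≤ a₀ → ∀ f : SchwartzMap ℂ ℂ,
        (∀ x, Tendsto (fun ε => trunc v a ε f x) (𝓝[>] 0) (𝓝 (hil v a f x))) ∧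
        ∫⁻ x, ‖hil v a f x‖ₑ ^ 2 ≤ C * ∫⁻ x, ‖f x‖ₑ ^ 2 ∧
        ∀ l : ℝ, 0 < l → volume {x | l < ‖hil v a f x‖} ≤
          C * ENNReal.ofReal (l ^ 2)⁻¹ * ∫⁻ x, ‖f x‖ₑ ^ 2 :=
  ⟨1 / 16, by norm_num, fun _ h => main_fin h⟩

end Vale.Agent.Results.P112.Sublevel
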